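import Mathlib

/-! P045: covers of sparse hypergraphs. -/

namespace Vale.P045S

open Finset

variable {V : Type} [DecidableEq V]

/-- the edges through `v`. -/
def star (H : Finset (Finset V)) (v : V) : Finset (Finset V) := H.filter (fun e => v ∈ e)

/-- a matching: pairwise disjoint edges. -/
def IsMatching (M : Finset (Finset V)) : Prop :=
  ∀ e ∈ M, ∀ f ∈ M, e ≠ f → Disjoint e f

/-- a vertex cover. -/
def IsCover (H : Finset (Finset V)) (T : Finset V) : Prop := ∀ e ∈ H, ∃ v ∈ e, v ∈ T

/-- counting: a family with all degrees at most `j` has at most `(r (j - 1) + 1) N` edges. -/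
theorem card_le (r j N : ℕ) (H : Finset (Finset V)) (hr : ∀ e ∈ H, e.card ≤ r)
    (_hne : ∀ e ∈ H, e.Nonempty) (hj : ∀ v, (star H v).card ≤ j + 1)
    (hN : ∀ M ⊆ H, IsMatching M → M.card ≤ N) : H.card ≤ (r * j + 1) * N := by
  classical
  -- a maximal matching
  obtain ⟨M, hM, hmax⟩ := Finset.exists_max_image (H.powerset.filter (fun M => IsMatching M))
    Finset.card ⟨∅, by
      rw [Finset.mem_filter]
      exact ⟨Finset.empty_mem_powerset _, fun e he => absurd he (Finset.notMem_empty e)⟩⟩
  rw [Finset.mem_filter, Finset.mem_powerset] at hM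
  obtain ⟨hMH, hMm⟩ := hM
  have hcov : H ⊆ M.biUnion (fun m => insert m (m.biUnion (fun v => (star H v).erase m))) := by
    intro e he
    by_cases heM : e ∈ M
    · exact Finset.mem_biUnion.2 ⟨e, heM, Finset.mem_insert_self _ _⟩
    · by_contra hcon
      have hdis : ∀ m ∈ M, Disjoint e m := by
        intro m hm
        rw [Finset.disjoint_left]
        intro v hve hvm
        apply hcon
        refine Finset.mem_biUnion.2 ⟨m, hm, Finset.mem_insert_of_mem ?_⟩
        refine Finset.mem_biUnion.2 ⟨v, hvm, Finset.mem_erase.2 ⟨?_, ?_⟩⟩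
        · rintro rfl; exact heM hm
        · exact Finset.mem_filter.2 ⟨he, hve⟩
      have h1 : insert e M ∈ H.powerset.filter (fun M => IsMatching M) := by
        rw [Finset.mem_filter, Finset.mem_powerset]
        refine ⟨Finset.insert_subset he hMH, ?_⟩
        intro a ha b hb hab
        rcases Finset.mem_insert.1 ha with ha1 | ha1
        · rcases Finset.mem_insert.1 hb with hb1 | hb1
          · exact absurd (ha1.trans hb1.symm) hab
          · rw [ha1]; exact hdis b hb1
        · rcases Finset.mem_insert.1 hb with hb1 | hb1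
          · rw [hb1]; exact (hdis a ha1).symm
          · exact hMm a ha1 b hb1 hab
      have h2 := hmax _ h1
      rw [Finset.card_insert_of_notMem heM] at h2
      omega
  have hcard : ∀ m ∈ M, (insert m (m.biUnion (fun v => (star H v).erase m))).card ≤ r * j + 1 := by
    intro m hm
    refine (Finset.card_insert_le _ _).trans (Nat.succ_le_succ ?_)
    refine Finset.card_biUnion_le.trans ?_
    calc ∑ v ∈ m, ((star H v).erase m).card ≤ ∑ _v ∈ m, j := by
          refine Finset.sum_le_sum (fun v hv => ?_)
          have h0 : m ∈ star H v := Finset.mem_filter.2 ⟨hMH hm, hv⟩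
          rw [Finset.card_erase_of_mem h0]
          have := hj v
          omega
      _ = m.card * j := by rw [Finset.sum_const, smul_eq_mul]
      _ ≤ r * j := Nat.mul_le_mul_right _ (hr m (hMH hm))
  calc H.card ≤ _ := Finset.card_le_card hcov
    _ ≤ ∑ m ∈ M, (insert m (m.biUnion (fun v => (star H v).erase m))).card :=
        Finset.card_biUnion_le
    _ ≤ ∑ _m ∈ M, (r * j + 1) := Finset.sum_le_sum hcard
    _ = M.card * (r * j + 1) := by rw [Finset.sum_const, smul_eq_mul]
    _ ≤ N * (r * j + 1) := Nat.mul_le_mul_right _ (hN M hMH hMm)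
    _ = (r * j + 1) * N := mul_comm _ _

/-- one greedy stage. -/
theorem stage (a b c : ℕ) (d : ℕ) (hd1 : 1 ≤ d) (hd : a ≤ b * d) (P : Finset (Finset V) → Prop)
    (hP : ∀ H H' : Finset (Finset V), H' ⊆ H → P H → P H')
    (hbase : ∀ H, P H → (∀ v, (star H v).card < d) →
      ∃ T : Finset V, IsCover H T ∧ a * T.card ≤ b * H.card + c) :
    ∀ H, P H → ∃ T : Finset V, IsCover H T ∧ a * T.card ≤ b * H.card + c := by
  classical
  intro H
  induction H using Finset.strongInduction with
  | H H ih =>
    intro hPH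
    by_cases hall : ∀ v, (star H v).card < d
    · exact hbase H hPH hall
    · push Not at hall
      obtain ⟨v, hv⟩ := hall
      have hd0 : (star H v).card ≠ 0 := by omega
      have hsub : H \ star H v ⊂ H := by
        refine Finset.sdiff_ssubset (Finset.filter_subset _ _) ?_
        exact Finset.card_pos.1 (Nat.pos_of_ne_zero hd0)
      obtain ⟨T, hT, hTc⟩ := ih _ hsub (hP H _ Finset.sdiff_subset hPH)
      refine ⟨insert v T, ?_, ?_⟩
      · intro e he
        by_cases hve : v ∈ e
        · exact ⟨v, hve, Finset.mem_insert_self _ _⟩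
        · obtain ⟨w, hw, hwT⟩ := hT e (Finset.mem_sdiff.2 ⟨he, fun h =>
            hve (Finset.mem_filter.1 h).2⟩)
          exact ⟨w, hw, Finset.mem_insert_of_mem hwT⟩
      · have h1 : (insert v T).card ≤ T.card + 1 := Finset.card_insert_le _ _
        have h2 : (H \ star H v).card + (star H v).card = H.card :=
          Finset.card_sdiff_add_card_eq_card (Finset.filter_subset _ _)
        have h3 : b * d ≤ b * (star H v).card := Nat.mul_le_mul_left _ hv
        calc a * (insert v T).card ≤ a * (T.card + 1) := Nat.mul_le_mul_left _ h1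
          _ = a * T.card + a := by ring
          _ ≤ (b * (H \ star H v).card + c) + b * (star H v).card := by omega
          _ = b * ((H \ star H v).card + (star H v).card) + c := by ring
          _ = b * H.card + c := by rw [h2]

/-- the hypotheses on the families: a bound on the edge sizes, no empty edge, and a bound on the
matching number. -/
def Good (r N : ℕ) (H : Finset (Finset V)) : Prop :=
  (∀ e ∈ H, e.card ≤ r) ∧ (∀ e ∈ H, e.Nonempty) ∧ ∀ M ⊆ H, IsMatching M → M.card ≤ N

theorem Good.mono {r N : ℕ} {H H' : Finset (Finset V)} (h : H' ⊆ H) (hH : Good r N H) :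
    Good r N H' :=
  ⟨fun e he => hH.1 e (h he), fun e he => hH.2.1 e (h he),
    fun M hM hm => hH.2.2 M (hM.trans h) hm⟩

/-- degrees at most one. -/
theorem deg_one (r N : ℕ) (H : Finset (Finset V)) (hH : Good r N H)
    (hd : ∀ v, (star H v).card < 2) :
    ∃ T : Finset V, IsCover H T ∧ 2 * T.card ≤ 1 * H.card + N := by
  classical
  have h1 : H.card ≤ (r * 0 + 1) * N :=
    card_le r 0 N H hH.1 hH.2.1 (fun v => by have := hd v; omega) hH.2.2
  choose g hg using fun e : H => hH.2.1 e e.2
  refine ⟨Finset.univ.image g, fun e he => ⟨g ⟨e, he⟩, hg ⟨e, he⟩,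
    Finset.mem_image_of_mem g (Finset.mem_univ _)⟩, ?_⟩
  have h2 : (Finset.univ.image g).card ≤ H.card := by
    refine Finset.card_image_le.trans (le_of_eq ?_)
    rw [Finset.card_univ, Fintype.card_coe]
  omega

/-- degrees at most two. -/
theorem deg_two (r N : ℕ) : ∀ H : Finset (Finset V), Good r N H ∧ (∀ v, (star H v).card < 3) →
    ∃ T : Finset V, IsCover H T ∧ 2 * T.card ≤ 1 * H.card + N := by
  refine stage 2 1 N 2 (by norm_num) (by norm_num) (fun H => Good r N H ∧
    (∀ v, (star H v).card < 3)) ?_ ?_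
  · rintro H H' h ⟨h1, h2⟩
    exact ⟨h1.mono h, fun v => lt_of_le_of_lt
      (Finset.card_le_card (Finset.filter_subset_filter _ h)) (h2 v)⟩
  · rintro H ⟨h1, _⟩ hd
    exact deg_one r N H h1 hd

/-- degrees at most three. -/
theorem deg_three (r N : ℕ) : ∀ H : Finset (Finset V), Good r N H ∧ (∀ v, (star H v).card < 4) →
    ∃ T : Finset V, IsCover H T ∧ 6 * T.card ≤ 2 * H.card + (r + 4) * N := by
  refine stage 6 2 ((r + 4) * N) 3 (by norm_num) (by norm_num) (fun H => Good r N H ∧
    (∀ v, (star H v).card < 4)) ?_ ?_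
  · rintro H H' h ⟨h1, h2⟩
    exact ⟨h1.mono h, fun v => lt_of_le_of_lt
      (Finset.card_le_card (Finset.filter_subset_filter _ h)) (h2 v)⟩
  · rintro H ⟨h1, _⟩ hd
    obtain ⟨T, hT, hc⟩ := deg_two r N H ⟨h1, hd⟩
    refine ⟨T, hT, ?_⟩
    have h2 : H.card ≤ (r * 1 + 1) * N :=
      card_le r 1 N H h1.1 h1.2.1 (fun v => by have := hd v; omega) h1.2.2
    have e1 : (r * 1 + 1) * N + 3 * N = (r + 4) * N := by ring
    omega

/-- no bound on the degrees. -/
theorem general (r N : ℕ) : ∀ H : Finset (Finset V), Good r N H →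
    ∃ T : Finset V, IsCover H T ∧ 12 * T.card ≤ 3 * H.card + (4 * r + 9) * N := by
  refine stage 12 3 ((4 * r + 9) * N) 4 (by norm_num) (by norm_num) (fun H => Good r N H) ?_ ?_
  · intro H H' h h1
    exact h1.mono h
  · intro H h1 hd
    obtain ⟨T, hT, hc⟩ := deg_three r N H ⟨h1, hd⟩
    refine ⟨T, hT, ?_⟩
    have h2 : H.card ≤ (r * 2 + 1) * N :=
      card_le r 2 N H h1.1 h1.2.1 (fun v => by have := hd v; omega) h1.2.2
    have e1 : (r * 2 + 1) * N + 2 * ((r + 4) * N) = (4 * r + 9) * N := by ring
    omega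

end Vale.P045S
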