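import Vale.Agent.P045.Global
import Vale.Agent.P045.SD.Main
import Vale.Agent.P045.Sparse13

/-!
# P045: all classes with one set of definitions
-/

namespace Vale.P045

variable {V : Type*}

theorem deg_conv [DecidableEq V] (E : Finset (Finset V)) (v : V) :
    Vale.Agent.P045.deg E v = deg E v := by
  unfold Vale.Agent.P045.deg deg
  exact congrArg Finset.card (Finset.ext fun e => by simp)

theorem nb_conv [DecidableEq V] (E : Finset (Finset V)) (e : Finset V) :
    (E.filter fun f => f ≠ e ∧ ¬ Disjoint e f).card = nb E e := by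
  unfold nb
  exact congrArg Finset.card (Finset.ext fun e => by simp)

theorem part_conv {r : ℕ} {part : V → Fin r} {E : Finset (Finset V)}
    (h : IsPartite part E) : Vale.Agent.P045.IsPartite r part E := h

theorem max_degree {r : ℕ} {part : V → Fin r} {E : Finset (Finset V)} (hE : IsPartite part E)
    (h : (4 ≤ r ∧ ∀ v, deg E v ≤ 3) ∨ (6 ≤ r ∧ ∀ v, deg E v ≤ 4) ∨
      (13 ≤ r ∧ ∀ v, deg E v ≤ 5)) : tau E ≤ (r - 1) * nu E := by
  classical
  refine Vale.Agent.P045.ryser_all part E (part_conv hE) ?_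
  simp only [deg_conv]
  rcases h with h | h | h
  · exact Or.inl h
  · exact Or.inr (Or.inl h)
  · exact Or.inr (Or.inr (Or.inl h))

theorem few_neighbours {r : ℕ} (hr : 2 ≤ r) {part : V → Fin r} {E : Finset (Finset V)}
    (hE : IsPartite part E) (h : ∀ e ∈ E, nb E e + 3 ≤ 2 * r) : tau E ≤ (r - 1) * nu E := by
  classical
  refine Vale.Agent.P045.ryser_all part E (part_conv hE)
    (Or.inr (Or.inr (Or.inr (Or.inl ⟨hr, fun e he => ?_⟩))))
  rw [nb_conv]
  exact h e he

theorem consecutive {r : ℕ} {part : V → Fin r} {E : Finset (Finset V)}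
    (hE : IsPartite part E) (a : ℕ) (ha : 1 ≤ a) (har : a + 2 ≤ r)
    (h : ∀ v, 1 ≤ deg E v → deg E v = a ∨ deg E v = a + 1) : tau E ≤ (r - 1) * nu E := by
  classical
  refine Vale.Agent.P045.ryser_all part E (part_conv hE)
    (Or.inr (Or.inr (Or.inr (Or.inr (Or.inl ⟨a, ha, har, fun e he v hv => ?_⟩)))))
  rw [deg_conv]
  exact h v (one_le_deg he hv)

end Vale.P045

namespace Vale.P045

theorem sparse {V : Type} {r : ℕ} (hr : 2 ≤ r) {part : V → Fin r} {E : Finset (Finset V)}
    (hE : IsPartite part E) : 12 * tau E ≤ 3 * E.card + (4 * r + 9) * nu E := by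
  classical
  have hgood : Vale.P045S.Good r (nu E) E := by
    refine ⟨fun e he => (card_edge hE he).le, ?_, ?_⟩
    · intro e he
      obtain ⟨v, hv, _⟩ := hE e he ⟨0, by omega⟩
      exact ⟨v, hv.1⟩
    · intro M hM hm
      exact card_le_nu ⟨hM, hm⟩
  obtain ⟨T, hT, hc⟩ := Vale.P045S.general r (nu E) E hgood
  have hT' : IsCover E T := fun e he => by
    obtain ⟨v, h1, h2⟩ := hT e he
    exact ⟨v, h2, h1⟩
  have := tau_le_card hT'
  omega

end Vale.P045
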