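import Vale.Agent.P045.Defs

/-!
# P045: averaging over the parts against the greedy matching bound
-/

namespace Vale.P045

open Finset Classical

variable {V : Type*}

/-- the number of other edges of `E` meeting `e` -/
noncomputable def nb (E : Finset (Finset V)) (e : Finset V) : ℕ :=
  (E.filter (fun f => f ≠ e ∧ ¬ Disjoint e f)).card

/-- the greedy (Caro-Wei) bound -/
theorem caro_wei (E : Finset (Finset V)) :
    ∃ M, IsMatching E M ∧ ∑ e ∈ E, (1 : ℝ) / (1 + nb E e) ≤ M.card := by
  induction E using Finset.strongInduction with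
  | H E ih =>
    rcases E.eq_empty_or_nonempty with rfl | hne
    · exact ⟨∅, ⟨by simp, by simp⟩, by simp⟩
    · obtain ⟨e0, he0, hmin⟩ := Finset.exists_min_image E (fun e => nb E e) hne
      set R := E.filter (fun f => f ≠ e0 ∧ Disjoint e0 f) with hR
      have hRE : R ⊆ E := Finset.filter_subset _ _
      have hRss : R ⊂ E := by
        refine Finset.ssubset_iff_subset_ne.mpr ⟨hRE, fun h => ?_⟩
        have : e0 ∈ R := by rw [h]; exact he0
        simp [hR] at this
      obtain ⟨M, hM, hsum⟩ := ih R hRss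
      have he0M : e0 ∉ M := fun h => by
        have := hM.1 h
        simp [hR] at this
      refine ⟨insert e0 M, ⟨?_, ?_⟩, ?_⟩
      · intro f hf
        rcases Finset.mem_insert.mp hf with rfl | hf
        · exact he0
        · exact hRE (hM.1 hf)
      · intro e he f hf hef
        rcases Finset.mem_insert.mp he with he1 | he1
        · rcases Finset.mem_insert.mp hf with hf1 | hf1
          · exact absurd (he1.trans hf1.symm) hef
          · rw [he1]
            exact (Finset.mem_filter.mp (hM.1 hf1)).2.2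
        · rcases Finset.mem_insert.mp hf with hf1 | hf1
          · rw [hf1]
            exact (Finset.mem_filter.mp (hM.1 he1)).2.2.symm
          · exact hM.2 e he1 f hf1 hef
      · rw [Finset.card_insert_of_notMem he0M]
        push_cast
        rw [← Finset.sum_sdiff hRE]
        have h1 : ∑ e ∈ R, (1 : ℝ) / (1 + nb E e) ≤ M.card := by
          refine le_trans (Finset.sum_le_sum fun e _ => ?_) hsum
          apply one_div_le_one_div_of_le
          · positivity
          · have : nb R e ≤ nb E e := Finset.card_le_card (Finset.filter_subset_filter _ hRE)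
            have h : (nb R e : ℝ) ≤ nb E e := by exact_mod_cast this
            linarith
        have hcard : (E \ R).card = 1 + nb E e0 := by
          have : E \ R = insert e0 (E.filter (fun f => f ≠ e0 ∧ ¬ Disjoint e0 f)) := by
            ext f
            simp only [hR, Finset.mem_sdiff, Finset.mem_filter, Finset.mem_insert, not_and]
            constructor
            · rintro ⟨hf, h⟩
              by_cases hfe : f = e0
              · exact Or.inl hfe
              · exact Or.inr ⟨hf, hfe, h hf hfe⟩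
            · rintro (rfl | ⟨hf, hfe, h⟩)
              · exact ⟨he0, fun _ h => absurd rfl h⟩
              · exact ⟨hf, fun _ _ => h⟩
          rw [this, Finset.card_insert_of_notMem (by simp), nb, add_comm]
        have h2 : ∑ e ∈ E \ R, (1 : ℝ) / (1 + nb E e) ≤ 1 := by
          calc ∑ e ∈ E \ R, (1 : ℝ) / (1 + nb E e)
              ≤ ∑ e ∈ E \ R, (1 : ℝ) / (1 + nb E e0) := by
                refine Finset.sum_le_sum fun e he => ?_
                apply one_div_le_one_div_of_le
                · positivity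
                · have := hmin e (Finset.sdiff_subset he)
                  have h : (nb E e0 : ℝ) ≤ nb E e := by exact_mod_cast this
                  linarith
            _ = 1 := by
                rw [Finset.sum_const, hcard, nsmul_eq_mul]
                push_cast
                have : (0 : ℝ) < 1 + nb E e0 := by positivity
                field_simp
        linarith

theorem card_le_nu {E M : Finset (Finset V)} (hM : IsMatching E M) : M.card ≤ nu E := by
  apply le_csSup
  · refine ⟨E.card, ?_⟩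
    rintro n ⟨M', hM', rfl⟩
    exact Finset.card_le_card hM'.1
  · exact ⟨M, hM, rfl⟩

theorem tau_le_card {E : Finset (Finset V)} {T : Finset V} (hT : IsCover E T) :
    tau E ≤ T.card := Nat.sInf_le ⟨T, hT, rfl⟩

/-- the criterion: if `p e i` is the vertex of `e` in part `i` and every edge satisfies the
weighted inequality between the degrees of its vertices, then `tau ≤ (r-1) nu` -/
theorem ryser_of_edge {r : ℕ} (hr : 1 ≤ r) {part : V → Fin r} {E : Finset (Finset V)}
    (w : Fin r → ℝ) (hw0 : ∀ i, 0 ≤ w i) (hw1 : ∑ i, w i = 1)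
    (p : Finset V → Fin r → V) (hp : ∀ e ∈ E, ∀ i, p e i ∈ e ∧ part (p e i) = i)
    (hp' : ∀ e ∈ E, ∀ v ∈ e, p e (part v) = v)
    (hedge : ∀ e ∈ E, (1 + ∑ i, ((deg E (p e i) : ℝ) - 1)) * ∑ i, w i / deg E (p e i) ≤
      r - 1) :
    tau E ≤ (r - 1) * nu E := by
  have hdeg : ∀ e ∈ E, ∀ v ∈ e, 1 ≤ deg E v := by
    intro e he v hv
    exact Finset.card_pos.mpr ⟨e, Finset.mem_filter.mpr ⟨he, hv⟩⟩
  -- the parts are covers
  have hpart : ∀ i : Fin r, (tau E : ℝ) ≤ ∑ e ∈ E, (1 : ℝ) / deg E (p e i) := by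
    intro i
    have hcov : IsCover E (E.image (fun e => p e i)) := by
      intro e he
      exact ⟨p e i, Finset.mem_image_of_mem _ he, (hp e he i).1⟩
    have h1 : (tau E : ℝ) ≤ (E.image (fun e => p e i)).card := by
      exact_mod_cast tau_le_card hcov
    refine h1.trans (le_of_eq ?_)
    rw [← Finset.sum_fiberwise_of_maps_to (s := E) (t := E.image (fun e => p e i))
      (g := fun e => p e i) (fun e he => Finset.mem_image_of_mem _ he)]
    rw [Finset.card_eq_sum_ones]
    push_cast
    apply Finset.sum_congr rfl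
    intro v hv
    obtain ⟨e1, he1, rfl⟩ := Finset.mem_image.mp hv
    have hfib : E.filter (fun e => p e i = p e1 i) = E.filter (fun e => p e1 i ∈ e) := by
      apply Finset.filter_congr
      intro e he
      constructor
      · intro h
        rw [← h]
        exact (hp e he i).1
      · intro h
        have := hp' e he _ h
        rwa [(hp e1 he1 i).2] at this
    have hconst : ∑ e ∈ E.filter (fun e => p e i = p e1 i), (1 : ℝ) / deg E (p e i) =
        ∑ e ∈ E.filter (fun e => p e i = p e1 i), (1 : ℝ) / deg E (p e1 i) := by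
      apply Finset.sum_congr rfl
      intro e he
      rw [(Finset.mem_filter.mp he).2]
    rw [hconst, Finset.sum_const, hfib, nsmul_eq_mul]
    have hd : (1 : ℝ) ≤ deg E (p e1 i) := by exact_mod_cast hdeg e1 he1 _ (hp e1 he1 i).1
    have hd' : ((E.filter (fun e => p e1 i ∈ e)).card : ℝ) = deg E (p e1 i) := by
      rw [deg]
    rw [hd']
    field_simp
  -- the neighbours of an edge
  have hnb : ∀ e ∈ E, (nb E e : ℝ) ≤ ∑ i, ((deg E (p e i) : ℝ) - 1) := by
    intro e he
    have hsub : E.filter (fun f => f ≠ e ∧ ¬ Disjoint e f) ⊆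
        Finset.univ.biUnion (fun i => (E.filter (fun f => p e i ∈ f)).erase e) := by
      intro f hf
      obtain ⟨hf1, hf2, hf3⟩ := Finset.mem_filter.mp hf
      obtain ⟨v, hv1, hv2⟩ := Finset.not_disjoint_iff.mp hf3
      refine Finset.mem_biUnion.mpr ⟨part v, Finset.mem_univ _, Finset.mem_erase.mpr ⟨hf2, ?_⟩⟩
      refine Finset.mem_filter.mpr ⟨hf1, ?_⟩
      rw [hp' e he v hv1]
      exact hv2
    have h1 : nb E e ≤ ∑ i, (deg E (p e i) - 1) := by
      refine (Finset.card_le_card hsub).trans (Finset.card_biUnion_le.trans ?_)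
      apply Finset.sum_le_sum
      intro i _
      rw [Finset.card_erase_of_mem (Finset.mem_filter.mpr ⟨he, (hp e he i).1⟩), deg]
    have h2 : ((∑ i, (deg E (p e i) - 1) : ℕ) : ℝ) = ∑ i, ((deg E (p e i) : ℝ) - 1) := by
      push_cast
      apply Finset.sum_congr rfl
      intro i _
      rw [Nat.cast_sub (hdeg e he _ (hp e he i).1)]
      simp
    rw [← h2]
    exact_mod_cast h1
  obtain ⟨M, hM, hsum⟩ := caro_wei E
  have hMnu : (M.card : ℝ) ≤ nu E := by exact_mod_cast card_le_nu hM
  have hr0 : (0 : ℝ) < r := by exact_mod_cast hr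
  have hr1 : (0 : ℝ) ≤ (r : ℝ) - 1 := by
    have : (1 : ℝ) ≤ r := by exact_mod_cast hr
    linarith
  have hkey : (tau E : ℝ) ≤ (r - 1) * nu E := by
    calc (tau E : ℝ) = ∑ i : Fin r, w i * (tau E : ℝ) := by rw [← Finset.sum_mul, hw1, one_mul]
      _ ≤ ∑ i : Fin r, w i * ∑ e ∈ E, (1 : ℝ) / deg E (p e i) :=
          Finset.sum_le_sum fun i _ => mul_le_mul_of_nonneg_left (hpart i) (hw0 i)
      _ = ∑ e ∈ E, ∑ i : Fin r, w i / deg E (p e i) := by
          simp only [Finset.mul_sum, mul_one_div]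
          exact Finset.sum_comm
      _ ≤ ∑ e ∈ E, ((r : ℝ) - 1) * ((1 : ℝ) / (1 + nb E e)) := by
          apply Finset.sum_le_sum
          intro e he
          have h1 : (0 : ℝ) < 1 + nb E e := by positivity
          have h2 : (0 : ℝ) ≤ ∑ i : Fin r, w i / deg E (p e i) :=
            Finset.sum_nonneg fun i _ => div_nonneg (hw0 i) (Nat.cast_nonneg _)
          rw [mul_one_div, le_div_iff₀ h1]
          calc (∑ i : Fin r, w i / deg E (p e i)) * (1 + nb E e)
              ≤ (∑ i : Fin r, w i / deg E (p e i)) *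
                (1 + ∑ i, ((deg E (p e i) : ℝ) - 1)) := by
                apply mul_le_mul_of_nonneg_left _ h2
                linarith [hnb e he]
            _ = (1 + ∑ i, ((deg E (p e i) : ℝ) - 1)) * ∑ i, w i / deg E (p e i) := by ring
            _ ≤ r - 1 := hedge e he
      _ = (r - 1) * ∑ e ∈ E, (1 : ℝ) / (1 + nb E e) := by rw [Finset.mul_sum]
      _ ≤ (r - 1) * nu E := mul_le_mul_of_nonneg_left (hsum.trans hMnu) hr1
  have hfin : (tau E : ℝ) ≤ ((r - 1 : ℕ) : ℝ) * nu E := by
    rw [Nat.cast_sub hr]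
    push_cast
    exact hkey
  exact_mod_cast hfin

/-- the inequality for one edge: degrees between `a` and `b` -/
theorem edge_range {r a b : ℕ} (ha : 1 ≤ a) (hr : 1 ≤ r) (x : Fin r → ℕ)
    (hx : ∀ i, a ≤ x i ∧ x i ≤ b)
    (h : (r * (a + b - 1) + 1) ^ 2 ≤ 4 * (a * b * (r * (r - 1))) + 1) :
    (1 + ∑ i, ((x i : ℝ) - 1)) * ∑ i, (1 : ℝ) / x i ≤ r * (r - 1) := by
  have hab : a ≤ b := (hx ⟨0, hr⟩).1.trans (hx ⟨0, hr⟩).2
  have hb : 1 ≤ b := ha.trans hab
  have haR : (1 : ℝ) ≤ a := by exact_mod_cast ha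
  have hbR : (1 : ℝ) ≤ b := by exact_mod_cast hb
  have habp : (0 : ℝ) < a * b := by positivity
  -- the chord
  have hchord : ∀ i, (1 : ℝ) / x i ≤ (a + b - x i) / (a * b) := by
    intro i
    have h1 : (a : ℝ) ≤ x i := by exact_mod_cast (hx i).1
    have h2 : (x i : ℝ) ≤ b := by exact_mod_cast (hx i).2
    have hx0 : (0 : ℝ) < x i := by linarith
    rw [div_le_div_iff₀ hx0 habp]
    nlinarith [mul_nonneg (sub_nonneg.mpr h1) (sub_nonneg.mpr h2)]
  set S : ℝ := ∑ i, (x i : ℝ) with hS
  have hsum1 : ∑ i, ((x i : ℝ) - 1) = S - r := by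
    rw [Finset.sum_sub_distrib]
    simp [hS]
  have hsum2 : ∑ i, (1 : ℝ) / x i ≤ (r * (a + b) - S) / (a * b) := by
    refine (Finset.sum_le_sum fun i _ => hchord i).trans (le_of_eq ?_)
    rw [← Finset.sum_div, Finset.sum_sub_distrib]
    simp only [Finset.sum_const, Finset.card_univ, Fintype.card_fin, nsmul_eq_mul, hS]
  have hSr : (r : ℝ) ≤ S := by
    have : ∑ _i : Fin r, (1 : ℝ) ≤ S := Finset.sum_le_sum fun i _ => by
      have : 1 ≤ x i := ha.trans (hx i).1
      exact_mod_cast this
    simpa using this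
  -- the integral inequality
  have hint : (1 + S - r) * (r * (a + b) - S) ≤ a * b * (r * (r - 1)) := by
    have hSz : S = ((∑ i, (x i : ℤ) : ℤ) : ℝ) := by
      rw [hS]
      push_cast
      rfl
    set s : ℤ := ∑ i, (x i : ℤ) with hs
    have hz : (1 + s - r) * (r * (a + b) - s) ≤ (a : ℤ) * b * (r * (r - 1)) := by
      have h' : ((r : ℤ) * (a + b - 1) + 1) ^ 2 ≤ 4 * ((a : ℤ) * b * (r * (r - 1))) + 1 := by
        have h1 : ((a + b - 1 : ℕ) : ℤ) = a + b - 1 := by omega
        have h2 : ((r - 1 : ℕ) : ℤ) = r - 1 := by omega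
        rw [← h1, ← h2]
        exact_mod_cast h
      have hsq : 4 * ((1 + s - r) * (r * (a + b) - s)) ≤ ((r : ℤ) * (a + b - 1) + 1) ^ 2 := by
        nlinarith [sq_nonneg ((1 + s - r) - (r * (a + b) - s))]
      have h4 := hsq.trans h'
      generalize (1 + s - r) * (r * (a + b) - s) = X at h4 ⊢
      generalize (a : ℤ) * b * (r * (r - 1)) = Y at h4 ⊢
      omega
    rw [hSz]
    exact_mod_cast hz
  rw [hsum1]
  have h0 : 0 ≤ 1 + (S - r) := by linarith
  calc (1 + (S - r)) * ∑ i, (1 : ℝ) / x i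
      ≤ (1 + (S - r)) * ((r * (a + b) - S) / (a * b)) := mul_le_mul_of_nonneg_left hsum2 h0
    _ = ((1 + S - r) * (r * (a + b) - S)) / (a * b) := by ring
    _ ≤ (a * b * (r * (r - 1))) / (a * b) := div_le_div_of_nonneg_right hint habp.le
    _ = r * (r - 1) := by field_simp

/-- the inequality for one edge: all degrees equal -/
theorem edge_regular {r d : ℕ} (hd : 1 ≤ d) (hdr : d ≤ r - 1) (hr : 1 ≤ r) (x : Fin r → ℕ)
    (hx : ∀ i, x i = d) :
    (1 + ∑ i, ((x i : ℝ) - 1)) * ∑ i, (1 : ℝ) / x i ≤ r * (r - 1) := by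
  simp only [hx, Finset.sum_const, Finset.card_univ, Fintype.card_fin, nsmul_eq_mul]
  have hdR : (1 : ℝ) ≤ d := by exact_mod_cast hd
  have hrR : (1 : ℝ) ≤ r := by exact_mod_cast hr
  have h1 : (d : ℝ) ≤ r - 1 := by
    have : ((d : ℕ) : ℝ) ≤ ((r - 1 : ℕ) : ℝ) := by exact_mod_cast hdr
    rwa [Nat.cast_sub hr, Nat.cast_one] at this
  rw [mul_one_div, mul_div_assoc', div_le_iff₀ (by linarith)]
  nlinarith

/-- Ryser's inequality from the weighted inequality for every edge -/
theorem ryser_weighted {r : ℕ} (hr : 1 ≤ r) {part : V → Fin r} {E : Finset (Finset V)}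
    (hE : IsPartite part E) (w : Fin r → ℝ) (hw0 : ∀ i, 0 ≤ w i) (hw1 : ∑ i, w i = 1)
    (hedge : ∀ e ∈ E, ∀ x : Fin r → ℕ, (∀ i, ∃ v ∈ e, part v = i ∧ x i = deg E v) →
      (1 + ∑ i, ((x i : ℝ) - 1)) * ∑ i, w i / x i ≤ r - 1) :
    tau E ≤ (r - 1) * nu E := by
  rcases E.eq_empty_or_nonempty with rfl | ⟨e0, he0⟩
  · have h : tau (∅ : Finset (Finset V)) ≤ (∅ : Finset V).card :=
      tau_le_card (fun e he => absurd he (Finset.notMem_empty e))
    have : tau (∅ : Finset (Finset V)) = 0 := by simpa using h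
    omega
  obtain ⟨v0, -, -⟩ := hE e0 he0 ⟨0, hr⟩
  have hex : ∀ e : Finset V, ∀ i : Fin r, ∃ v, e ∈ E → v ∈ e ∧ part v = i := by
    intro e i
    by_cases he : e ∈ E
    · obtain ⟨v, hv, -⟩ := hE e he i
      exact ⟨v, fun _ => hv⟩
    · exact ⟨v0, fun h => absurd h he⟩
  choose p hp using hex
  refine ryser_of_edge hr (part := part) w hw0 hw1 p (fun e he i => hp e i he) ?_ ?_
  · intro e he v hv
    obtain ⟨w, -, hw⟩ := hE e he (part v)
    exact (hw _ (hp e (part v) he)).trans (hw v ⟨hv, rfl⟩).symm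
  · intro e he
    apply hedge e he
    intro i
    exact ⟨p e i, (hp e i he).1, (hp e i he).2, rfl⟩

theorem one_le_deg {E : Finset (Finset V)} {e : Finset V} (he : e ∈ E) {v : V} (hv : v ∈ e) :
    1 ≤ deg E v := Finset.card_pos.mpr ⟨e, Finset.mem_filter.mpr ⟨he, hv⟩⟩

/-- Ryser's inequality, equal weights -/
theorem ryser_of_deg {r : ℕ} (hr : 1 ≤ r) {part : V → Fin r} {E : Finset (Finset V)}
    (hE : IsPartite part E)
    (hedge : ∀ x : Fin r → ℕ, (∀ i, ∃ v, 1 ≤ deg E v ∧ x i = deg E v) →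
      (1 + ∑ i, ((x i : ℝ) - 1)) * ∑ i, (1 : ℝ) / x i ≤ r * (r - 1)) :
    tau E ≤ (r - 1) * nu E := by
  have hr0 : (0 : ℝ) < r := by exact_mod_cast hr
  refine ryser_weighted hr hE (fun _ => 1 / r) (fun _ => by positivity) (by simp; field_simp) ?_
  intro e he x hx
  have h := hedge x fun i => by
    obtain ⟨v, hv, -, hxv⟩ := hx i
    exact ⟨v, one_le_deg he hv, hxv⟩
  have h1 : ∑ i, (1 / (r : ℝ)) / x i = (1 / r) * ∑ i, (1 : ℝ) / x i := by
    rw [Finset.mul_sum]
    apply Finset.sum_congr rfl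
    intro i _
    ring
  rw [h1]
  calc (1 + ∑ i, ((x i : ℝ) - 1)) * (1 / r * ∑ i, (1 : ℝ) / x i)
      = ((1 + ∑ i, ((x i : ℝ) - 1)) * ∑ i, (1 : ℝ) / x i) / r := by ring
    _ ≤ (r * (r - 1)) / r := div_le_div_of_nonneg_right h hr0.le
    _ = r - 1 := by field_simp

/-- Ryser's inequality when one part has large degrees and the other parts have small degrees -/
theorem ryser_one_part {r a b : ℕ} (hr : 2 ≤ r) {part : V → Fin r} {E : Finset (Finset V)}
    (hE : IsPartite part E) (j : Fin r) (hb : 1 ≤ b)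
    (hj : ∀ v, part v = j → 1 ≤ deg E v → a ≤ deg E v)
    (hi : ∀ v, part v ≠ j → deg E v ≤ b)
    (h : (r - 1) * (b - 1) ≤ (r - 2) * a) :
    tau E ≤ (r - 1) * nu E := by
  have hr1 : 1 ≤ r := by omega
  refine ryser_weighted hr1 hE (fun i => if i = j then 1 else 0)
    (fun i => by split_ifs <;> norm_num) (by simp) ?_
  intro e he x hx
  have h1 : ∑ i, (if i = j then (1 : ℝ) else 0) / x i = 1 / x j := by
    rw [Finset.sum_eq_single j]
    · simp
    · intro i _ hij
      simp [hij]
    · simp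
  rw [h1]
  obtain ⟨vj, hvj, hpj, hxj⟩ := hx j
  have hxj1 : 1 ≤ x j := by rw [hxj]; exact one_le_deg he hvj
  have hxja : a ≤ x j := by rw [hxj]; exact hj vj hpj (one_le_deg he hvj)
  have hsum : ∑ i, ((x i : ℝ) - 1) ≤ ((x j : ℝ) - 1) + (r - 1) * (b - 1) := by
    rw [← Finset.add_sum_erase _ _ (Finset.mem_univ j)]
    have h2 : ∑ i ∈ Finset.univ.erase j, ((x i : ℝ) - 1) ≤
        ∑ i ∈ Finset.univ.erase j, ((b : ℝ) - 1) := by
      apply Finset.sum_le_sum
      intro i hij
      obtain ⟨v, hv, hpv, hxv⟩ := hx i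
      have : x i ≤ b := by
        rw [hxv]
        exact hi v (by rw [hpv]; exact Finset.ne_of_mem_erase hij)
      have : (x i : ℝ) ≤ b := by exact_mod_cast this
      linarith
    have h3 : ∑ i ∈ (Finset.univ : Finset (Fin r)).erase j, ((b : ℝ) - 1) =
        (r - 1) * (b - 1) := by
      rw [Finset.sum_const, Finset.card_erase_of_mem (Finset.mem_univ j), Finset.card_univ,
        Fintype.card_fin, nsmul_eq_mul, Nat.cast_sub hr1, Nat.cast_one]
    linarith
  have hR : ((r : ℝ) - 1) * (b - 1) ≤ (r - 2) * x j := by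
    have h4 : (((r - 1) * (b - 1) : ℕ) : ℝ) ≤ (((r - 2) * a : ℕ) : ℝ) := by exact_mod_cast h
    rw [Nat.cast_mul, Nat.cast_mul, Nat.cast_sub hr1, Nat.cast_sub hb, Nat.cast_sub hr] at h4
    push_cast at h4
    have h5 : (0 : ℝ) ≤ (r : ℝ) - 2 := by
      have : (2 : ℝ) ≤ r := by exact_mod_cast hr
      linarith
    have h6 : (a : ℝ) ≤ x j := by exact_mod_cast hxja
    exact h4.trans (mul_le_mul_of_nonneg_left h6 h5)
  have hx0 : (0 : ℝ) < x j := by exact_mod_cast hxj1
  rw [mul_one_div, div_le_iff₀ hx0]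
  linarith

end Vale.P045
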