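import Mathlib

/-!
# P045: covers and matchings of r-partite hypergraphs
-/

namespace Vale.P045

/-- every edge of `E` has exactly one vertex in each of the `r` parts -/
def IsPartite {V : Type*} {r : ℕ} (part : V → Fin r) (E : Finset (Finset V)) : Prop :=
  ∀ e ∈ E, ∀ i : Fin r, ∃! v, v ∈ e ∧ part v = i

/-- `T` is a vertex cover of `E` -/
def IsCover {V : Type*} (E : Finset (Finset V)) (T : Finset V) : Prop :=
  ∀ e ∈ E, ∃ v ∈ T, v ∈ e

/-- `M` is a matching of `E`: a set of pairwise disjoint edges -/
def IsMatching {V : Type*} (E M : Finset (Finset V)) : Prop :=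
  M ⊆ E ∧ ∀ e ∈ M, ∀ f ∈ M, e ≠ f → Disjoint e f

/-- the covering number -/
noncomputable def tau {V : Type*} (E : Finset (Finset V)) : ℕ :=
  sInf {n | ∃ T : Finset V, IsCover E T ∧ T.card = n}

/-- the matching number -/
noncomputable def nu {V : Type*} (E : Finset (Finset V)) : ℕ :=
  sSup {n | ∃ M : Finset (Finset V), IsMatching E M ∧ M.card = n}

open Classical in
/-- the number of edges of `E` containing `v` -/
noncomputable def deg {V : Type*} (E : Finset (Finset V)) (v : V) : ℕ :=
  (E.filter (fun e => v ∈ e)).card

open Classical in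
/-- the non-isolated vertices of part `j` -/
noncomputable def partSet {V : Type*} {r : ℕ} (part : V → Fin r) (E : Finset (Finset V))
    (j : Fin r) : Finset V := (E.biUnion id).filter (fun v => part v = j)

open Classical in
/-- the sum of the squares of the degrees of all non-isolated vertices -/
noncomputable def degSq {V : Type*} (E : Finset (Finset V)) : ℕ :=
  ∑ v ∈ E.biUnion id, deg E v ^ 2

end Vale.P045
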