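import Vale.Agent.P045.Core

/-!
# P045: a global criterion
-/

namespace Vale.P045

open Finset Classical

variable {V : Type*}

theorem degSq_eq (E : Finset (Finset V)) : degSq E = ∑ e ∈ E, ∑ v ∈ e, deg E v := by
  have h1 : ∑ e ∈ E, ∑ v ∈ e, deg E v =
      ∑ e ∈ E, ∑ v ∈ E.biUnion id, if v ∈ e then deg E v else 0 := by
    apply Finset.sum_congr rfl
    intro e he
    rw [← Finset.sum_filter]
    apply Finset.sum_congr _ (fun _ _ => rfl)
    ext v
    simp only [Finset.mem_filter, Finset.mem_biUnion, id]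
    exact ⟨fun h => ⟨⟨e, he, h⟩, h⟩, fun h => h.2⟩
  rw [h1, Finset.sum_comm, degSq]
  apply Finset.sum_congr rfl
  intro v _
  rw [← Finset.sum_filter, Finset.sum_const, sq, smul_eq_mul]
  rfl

theorem card_edge {r : ℕ} {part : V → Fin r} {E : Finset (Finset V)} (hE : IsPartite part E)
    {e : Finset V} (he : e ∈ E) : e.card = r := by
  have h := Finset.card_eq_sum_card_fiberwise (s := e) (t := Finset.univ) (f := part)
    (fun v _ => Finset.mem_univ _)
  rw [h]
  have h1 : ∀ i ∈ (Finset.univ : Finset (Fin r)), (e.filter (fun v => part v = i)).card = 1 := by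
    intro i _
    obtain ⟨v, hv, huniq⟩ := hE e he i
    rw [Finset.card_eq_one]
    refine ⟨v, ?_⟩
    ext w
    simp only [Finset.mem_filter, Finset.mem_singleton]
    exact ⟨fun h => huniq w h, fun h => h ▸ hv⟩
  rw [Finset.sum_congr rfl h1]
  simp

theorem nb_le (E : Finset (Finset V)) {e : Finset V} (he : e ∈ E) :
    nb E e + e.card ≤ ∑ v ∈ e, deg E v := by
  have hsub : E.filter (fun f => f ≠ e ∧ ¬ Disjoint e f) ⊆
      e.biUnion (fun v => (E.filter (fun f => v ∈ f)).erase e) := by
    intro f hf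
    obtain ⟨hf1, hf2, hf3⟩ := Finset.mem_filter.mp hf
    obtain ⟨v, hv1, hv2⟩ := Finset.not_disjoint_iff.mp hf3
    exact Finset.mem_biUnion.mpr ⟨v, hv1, Finset.mem_erase.mpr
      ⟨hf2, Finset.mem_filter.mpr ⟨hf1, hv2⟩⟩⟩
  have h1 : nb E e ≤ ∑ v ∈ e, (deg E v - 1) := by
    refine (Finset.card_le_card hsub).trans (Finset.card_biUnion_le.trans ?_)
    apply Finset.sum_le_sum
    intro v hv
    rw [Finset.card_erase_of_mem (Finset.mem_filter.mpr ⟨he, hv⟩), deg]
  have h2 : ∑ v ∈ e, deg E v = ∑ v ∈ e, (deg E v - 1) + e.card := by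
    rw [Finset.card_eq_sum_ones, ← Finset.sum_add_distrib]
    apply Finset.sum_congr rfl
    intro v hv
    have := one_le_deg he hv
    omega
  omega

/-- Ryser's inequality from a global inequality between the degrees -/
theorem ryser_global {r : ℕ} (hr : 1 ≤ r) {part : V → Fin r} {E : Finset (Finset V)}
    (hE : IsPartite part E) (j : Fin r)
    (h : (partSet part E j).card * degSq E ≤
      (r - 1) * E.card * (E.card + (partSet part E j).card)) :
    tau E ≤ (r - 1) * nu E := by
  have hcov : IsCover E (partSet part E j) := by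
    intro e he
    obtain ⟨v, ⟨hv1, hv2⟩, -⟩ := hE e he j
    exact ⟨v, Finset.mem_filter.mpr ⟨Finset.mem_biUnion.mpr ⟨e, he, hv1⟩, hv2⟩, hv1⟩
  have htau := tau_le_card hcov
  rcases E.eq_empty_or_nonempty with rfl | hne
  · have h : tau (∅ : Finset (Finset V)) ≤ (∅ : Finset V).card :=
      tau_le_card (fun e he => absurd he (Finset.notMem_empty e))
    have : tau (∅ : Finset (Finset V)) = 0 := by simpa using h
    omega
  obtain ⟨M, hM, hsum⟩ := caro_wei E
  have hMnu : (M.card : ℝ) ≤ nu E := by exact_mod_cast card_le_nu hM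
  set Q : ℝ := ∑ e ∈ E, (1 + (nb E e : ℝ)) with hQ
  have hQpos : 0 < Q := Finset.sum_pos (fun e _ => by positivity) hne
  have hQle : Q + (r - 1) * E.card ≤ degSq E := by
    have h1 : ∑ e ∈ E, (nb E e + e.card) ≤ degSq E := by
      rw [degSq_eq]
      exact Finset.sum_le_sum fun e he => nb_le E he
    have h2 : ∑ e ∈ E, (nb E e + e.card) = ∑ e ∈ E, (nb E e + r) :=
      Finset.sum_congr rfl fun e he => by rw [card_edge hE he]
    rw [h2] at h1
    have h3 : ((∑ e ∈ E, (nb E e + r) : ℕ) : ℝ) ≤ degSq E := by exact_mod_cast h1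
    have h4 : ((∑ e ∈ E, (nb E e + r) : ℕ) : ℝ) = Q + (r - 1) * E.card := by
      rw [hQ]
      push_cast
      rw [Finset.sum_add_distrib, Finset.sum_add_distrib]
      simp
      ring
    rw [← h4]
    exact h3
  have hcs : (E.card : ℝ) ^ 2 ≤ (∑ e ∈ E, (1 : ℝ) / (1 + nb E e)) * Q := by
    have := Finset.sum_sq_le_sum_mul_sum_of_sq_le_mul E (r := fun _ => (1 : ℝ))
      (f := fun e => (1 : ℝ) / (1 + nb E e)) (g := fun e => 1 + (nb E e : ℝ))
      (fun e _ => by positivity) (fun e _ => by positivity)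
      (fun e _ => by
        have : (0 : ℝ) < 1 + nb E e := by positivity
        exact le_of_eq (by field_simp))
    simpa using this
  have hm : (E.card : ℝ) ^ 2 ≤ nu E * Q :=
    hcs.trans (mul_le_mul_of_nonneg_right (hsum.trans hMnu) hQpos.le)
  have hR : ((partSet part E j).card : ℝ) * degSq E ≤
      (r - 1) * E.card * (E.card + (partSet part E j).card) := by
    have h5 : (((partSet part E j).card * degSq E : ℕ) : ℝ) ≤
      (((r - 1) * E.card * (E.card + (partSet part E j).card) : ℕ) : ℝ) := by exact_mod_cast h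
    rw [Nat.cast_mul, Nat.cast_mul, Nat.cast_mul, Nat.cast_sub hr] at h5
    push_cast at h5
    exact h5
  set N : ℝ := ((partSet part E j).card : ℝ) with hN
  have hN0 : 0 ≤ N := Nat.cast_nonneg _
  have hr1 : (0 : ℝ) ≤ (r : ℝ) - 1 := by
    have : (1 : ℝ) ≤ r := by exact_mod_cast hr
    linarith
  have h6 : N * Q ≤ (r - 1) * (nu E * Q) := by
    calc N * Q ≤ N * (degSq E - (r - 1) * E.card) :=
          mul_le_mul_of_nonneg_left (by linarith) hN0
      _ = N * degSq E - (r - 1) * E.card * N := by ring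
      _ ≤ (r - 1) * (E.card : ℝ) ^ 2 := by linarith
      _ ≤ (r - 1) * (nu E * Q) := mul_le_mul_of_nonneg_left hm hr1
  have h7 : N ≤ (r - 1) * nu E := by
    have : N * Q ≤ ((r - 1) * nu E) * Q := by linarith
    exact le_of_mul_le_mul_right this hQpos
  have h8 : ((partSet part E j).card : ℝ) ≤ (((r - 1) * nu E : ℕ) : ℝ) := by
    rw [Nat.cast_mul, Nat.cast_sub hr]
    push_cast
    exact h7
  exact htau.trans (by exact_mod_cast h8)

end Vale.P045
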